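import Mathlib

/-! # Mod-`ℓ` Milnor `K`-theory data of a field: definitions and first relations -/

namespace Vale.Agent.Lib.P019

open TensorProduct Polynomial

set_option linter.unusedSectionVars false

variable (ℓ : ℕ) [Fact ℓ.Prime] (F : Type) [Field F]

/-- `V_F = F^× / (F^×)^ℓ`, written additively -/
def V : Type := Additive (Fˣ ⧸ (powMonoidHom ℓ : Fˣ →* Fˣ).range)

instance : AddCommGroup (V ℓ F) :=
  inferInstanceAs (AddCommGroup (Additive (Fˣ ⧸ (powMonoidHom ℓ : Fˣ →* Fˣ).range)))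

/-- the class `[x]` of a unit -/
def cls (x : Fˣ) : V ℓ F := Additive.ofMul (QuotientGroup.mk x)

theorem cls_surj (v : V ℓ F) : ∃ x : Fˣ, cls ℓ F x = v := by
  obtain ⟨x, hx⟩ := QuotientGroup.mk_surjective (Additive.toMul v)
  exact ⟨x, by rw [cls, hx]; rfl⟩

theorem cls_mul (x y : Fˣ) : cls ℓ F (x * y) = cls ℓ F x + cls ℓ F y := rfl

theorem cls_inv (x : Fˣ) : cls ℓ F x⁻¹ = - cls ℓ F x := rfl

theorem cls_eq_zero_iff (x : Fˣ) : cls ℓ F x = 0 ↔ ∃ y : Fˣ, y ^ ℓ = x := by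
  have h : cls ℓ F x = 0 ↔ (QuotientGroup.mk x : Fˣ ⧸ (powMonoidHom ℓ : Fˣ →* Fˣ).range) = 1 :=
    Iff.rfl
  rw [h, QuotientGroup.eq_one_iff]
  rfl

theorem V_torsion (v : V ℓ F) : ℓ • v = 0 := by
  obtain ⟨x, rfl⟩ := cls_surj ℓ F v
  have h : ℓ • cls ℓ F x = cls ℓ F (x ^ ℓ) := rfl
  rw [h, cls_eq_zero_iff]
  exact ⟨x, rfl⟩

/-- the only `𝔽_ℓ`-vector space structure on the `ℓ`-torsion group `V_F` -/
instance : Module (ZMod ℓ) (V ℓ F) := AddCommGroup.zmodModule (V_torsion ℓ F)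

/-- `R_F`: the span of the Steinberg tensors `[x] ⊗ [1 - x]` -/
def steinberg : Submodule (ZMod ℓ) (V ℓ F ⊗[ZMod ℓ] V ℓ F) :=
  Submodule.span (ZMod ℓ)
    {z | ∃ x y : Fˣ, (x : F) + (y : F) = 1 ∧ z = cls ℓ F x ⊗ₜ[ZMod ℓ] cls ℓ F y}

/-- a linear isomorphism `V_K → V_L` is compatible if `Θ ⊗ Θ` maps `R_K` onto `R_L` -/
def Compatible {K L : Type} [Field K] [Field L] (Θ : V ℓ K ≃ₗ[ZMod ℓ] V ℓ L) : Prop :=
  (steinberg ℓ K).map (TensorProduct.map Θ.toLinearMap Θ.toLinearMap) = steinberg ℓ L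

/-- the class of an element, with the value `0` at `0` -/
noncomputable def c0 (x : F) : V ℓ F := open Classical in if h : x = 0 then 0 else cls ℓ F (Units.mk0 x h)

theorem c0_zero : c0 ℓ F 0 = 0 := by simp [c0]

theorem c0_of_ne {x : F} (h : x ≠ 0) : c0 ℓ F x = cls ℓ F (Units.mk0 x h) := by simp [c0, h]

theorem c0_unit (x : Fˣ) : c0 ℓ F (x : F) = cls ℓ F x := by
  rw [c0_of_ne ℓ F x.ne_zero]
  congr 1
  exact Units.ext rfl

theorem c0_mul {x y : F} (hx : x ≠ 0) (hy : y ≠ 0) :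
    c0 ℓ F (x * y) = c0 ℓ F x + c0 ℓ F y := by
  rw [c0_of_ne ℓ F hx, c0_of_ne ℓ F hy, c0_of_ne ℓ F (mul_ne_zero hx hy), ← cls_mul]
  congr 1
  exact Units.ext rfl

theorem c0_inv (x : F) : c0 ℓ F x⁻¹ = - c0 ℓ F x := by
  by_cases hx : x = 0
  · simp [hx, c0_zero]
  rw [c0_of_ne ℓ F hx, c0_of_ne ℓ F (inv_ne_zero hx), ← cls_inv]
  congr 1
  exact Units.ext rfl

theorem c0_pow (x : F) : c0 ℓ F (x ^ ℓ) = 0 := by
  by_cases hx : x = 0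
  · have hℓ : ℓ ≠ 0 := (Fact.out : ℓ.Prime).ne_zero
    simp [hx, hℓ, c0_zero]
  rw [c0_of_ne ℓ F (pow_ne_zero ℓ hx), cls_eq_zero_iff]
  exact ⟨Units.mk0 x hx, Units.ext rfl⟩

theorem c0_div {x y : F} (hx : x ≠ 0) (hy : y ≠ 0) :
    c0 ℓ F (x / y) = c0 ℓ F x - c0 ℓ F y := by
  rw [div_eq_mul_inv, c0_mul ℓ F hx (inv_ne_zero hy), c0_inv, sub_eq_add_neg]

theorem c0_tmul_mem {x : F} (h0 : x ≠ 0) (h1 : x ≠ 1) :
    c0 ℓ F x ⊗ₜ[ZMod ℓ] c0 ℓ F (1 - x) ∈ steinberg ℓ F := by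
  have h2 : 1 - x ≠ 0 := sub_ne_zero.2 (Ne.symm h1)
  rw [c0_of_ne ℓ F h0, c0_of_ne ℓ F h2]
  exact Submodule.subset_span ⟨Units.mk0 x h0, Units.mk0 (1 - x) h2, by simp, rfl⟩

/-- `[x] ⊗ [-x]` is a combination of two Steinberg tensors -/
theorem c0_tmul_neg_mem (x : F) : c0 ℓ F x ⊗ₜ[ZMod ℓ] c0 ℓ F (-x) ∈ steinberg ℓ F := by
  by_cases h0 : x = 0
  · simp [h0, c0_zero]
  by_cases h1 : x = 1
  · have : c0 ℓ F (1 : F) = 0 := by
      have := c0_pow ℓ F (1 : F)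
      rwa [one_pow] at this
    rw [h1, this, zero_tmul]
    exact Submodule.zero_mem _
  have hi0 : x⁻¹ ≠ 0 := inv_ne_zero h0
  have hi1 : x⁻¹ ≠ 1 := fun h => h1 (by simpa using h)
  have h2 : 1 - x ≠ 0 := sub_ne_zero.2 (Ne.symm h1)
  have h3 : 1 - x⁻¹ ≠ 0 := sub_ne_zero.2 (Ne.symm hi1)
  have e : -x = (1 - x) / (1 - x⁻¹) := by
    rw [eq_div_iff h3]
    field_simp
    ring
  rw [e, c0_div ℓ F h2 h3, tmul_sub]
  have e2 : c0 ℓ F x ⊗ₜ[ZMod ℓ] c0 ℓ F (1 - x⁻¹)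
      = - (c0 ℓ F x⁻¹ ⊗ₜ[ZMod ℓ] c0 ℓ F (1 - x⁻¹)) := by
    rw [c0_inv, neg_tmul, neg_neg]
  rw [e2, sub_neg_eq_add]
  exact Submodule.add_mem _ (c0_tmul_mem ℓ F h0 h1) (c0_tmul_mem ℓ F hi0 hi1)

/-- bilinearity: it is enough to test generators -/
theorem tmul_mem_of_span {S : Set (V ℓ F)} {R : Submodule (ZMod ℓ) (V ℓ F ⊗[ZMod ℓ] V ℓ F)}
    (h : ∀ v ∈ S, ∀ w ∈ S, v ⊗ₜ[ZMod ℓ] w ∈ R) :
    ∀ v ∈ Submodule.span (ZMod ℓ) S, ∀ w ∈ Submodule.span (ZMod ℓ) S, v ⊗ₜ[ZMod ℓ] w ∈ R := by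
  intro v hv w hw
  induction hv using Submodule.span_induction with
  | mem v hv =>
    induction hw using Submodule.span_induction with
    | mem w hw => exact h v hv w hw
    | zero => rw [tmul_zero]; exact Submodule.zero_mem _
    | add a b _ _ iha ihb => rw [tmul_add]; exact Submodule.add_mem _ iha ihb
    | smul c a _ iha => rw [tmul_smul]; exact Submodule.smul_mem _ c iha
  | zero => rw [zero_tmul]; exact Submodule.zero_mem _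
  | add a b _ _ iha ihb => rw [add_tmul]; exact Submodule.add_mem _ iha ihb
  | smul c a _ iha => rw [← smul_tmul']; exact Submodule.smul_mem _ c iha

end Vale.Agent.Lib.P019
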