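import Vale.Agent.Lib.P019.Pencil

/-! # The rational function field in one variable -/

namespace Vale.Agent.Lib.P019

open TensorProduct Polynomial Cardinal

set_option linter.unusedSectionVars false

variable (ℓ : ℕ) [Fact ℓ.Prime] (k : Type) [Field k]

section closed

variable [IsAlgClosed k]

theorem pencil_X_eq_top : pencil ℓ k (RatFunc k) RatFunc.X = ⊤ := by
  rw [eq_top_iff]
  intro v _
  obtain ⟨x, rfl⟩ := cls_surj ℓ (RatFunc k) v
  rw [← c0_unit, ← RatFunc.num_div_denom (x : RatFunc k), ← RatFunc.aeval_X_left_eq_algebraMap,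
    ← RatFunc.aeval_X_left_eq_algebraMap]
  exact ratfun_mem_pencil ℓ k (RatFunc k) RatFunc.X _ _

/-- `K_2 / ℓ` of `k(t)` vanishes: the Steinberg tensors span everything -/
theorem steinberg_ratFunc : steinberg ℓ (RatFunc k) = ⊤ := by
  rw [eq_top_iff, ← TensorProduct.span_tmul_eq_top, Submodule.span_le]
  rintro _ ⟨v, w, rfl⟩
  refine pencil_isotropic ℓ k (RatFunc k) RatFunc.X v ?_ w ?_
  · rw [pencil_X_eq_top]; exact Submodule.mem_top
  · rw [pencil_X_eq_top]; exact Submodule.mem_top

end closed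

theorem rootMult_pow (a : k) (p : k[X]) (hp : p ≠ 0) (n : ℕ) :
    rootMultiplicity a (p ^ n) = n * rootMultiplicity a p := by
  induction n with
  | zero => simp
  | succ n ih =>
    rw [pow_succ, rootMultiplicity_mul (mul_ne_zero (pow_ne_zero n hp) hp), ih]
    ring

/-- the classes `[t - a]` are pairwise distinct -/
theorem c0_lin_injective :
    Function.Injective fun a : k => c0 ℓ (RatFunc k) (RatFunc.X - RatFunc.C a) := by
  classical
  intro a b hab
  by_contra hne
  have hXa : (RatFunc.X - RatFunc.C a : RatFunc k) = algebraMap k[X] (RatFunc k) (X - C a) := by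
    simp
  have hXb : (RatFunc.X - RatFunc.C b : RatFunc k) = algebraMap k[X] (RatFunc k) (X - C b) := by
    simp
  have hinj : Function.Injective (algebraMap k[X] (RatFunc k)) := RatFunc.algebraMap_injective k
  have ha0 : (RatFunc.X - RatFunc.C a : RatFunc k) ≠ 0 := by
    rw [hXa]
    exact (map_ne_zero_iff _ hinj).2 (X_sub_C_ne_zero a)
  have hb0 : (RatFunc.X - RatFunc.C b : RatFunc k) ≠ 0 := by
    rw [hXb]
    exact (map_ne_zero_iff _ hinj).2 (X_sub_C_ne_zero b)
  have h1 : c0 ℓ (RatFunc k) ((RatFunc.X - RatFunc.C a) / (RatFunc.X - RatFunc.C b)) = 0 := by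
    rw [c0_div ℓ _ ha0 hb0]
    exact sub_eq_zero.2 hab
  rw [c0_of_ne ℓ _ (div_ne_zero ha0 hb0), cls_eq_zero_iff] at h1
  obtain ⟨g, hg⟩ := h1
  have hg' : (g : RatFunc k) ^ ℓ = (RatFunc.X - RatFunc.C a) / (RatFunc.X - RatFunc.C b) := by
    have := congrArg (fun u : (RatFunc k)ˣ => (u : RatFunc k)) hg
    simpa using this
  set P := RatFunc.num (g : RatFunc k) with hP
  set Q := RatFunc.denom (g : RatFunc k) with hQ
  have hQ0 : Q ≠ 0 := RatFunc.denom_ne_zero _
  have hP0 : P ≠ 0 := RatFunc.num_ne_zero g.ne_zero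
  have hQ0' : algebraMap k[X] (RatFunc k) Q ≠ 0 := (map_ne_zero_iff _ hinj).2 hQ0
  have hgd : (g : RatFunc k) = algebraMap _ _ P / algebraMap _ _ Q :=
    (RatFunc.num_div_denom _).symm
  have hpoly : P ^ ℓ * (X - C b) = (X - C a) * Q ^ ℓ := by
    apply hinj
    rw [map_mul, map_mul, map_pow, map_pow, ← hXa, ← hXb]
    rw [hgd, div_pow, div_eq_div_iff (pow_ne_zero _ hQ0') hb0] at hg'
    exact hg'
  have hm := congrArg (rootMultiplicity a) hpoly
  rw [rootMultiplicity_mul (mul_ne_zero (pow_ne_zero _ hP0) (X_sub_C_ne_zero b)),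
    rootMultiplicity_mul (mul_ne_zero (X_sub_C_ne_zero a) (pow_ne_zero _ hQ0)),
    rootMult_pow k a P hP0, rootMult_pow k a Q hQ0, rootMultiplicity_X_sub_C_self,
    rootMultiplicity_X_sub_C, if_neg hne, add_zero] at hm
  have hℓ : 2 ≤ ℓ := (Fact.out : ℓ.Prime).two_le
  have hdvd : ℓ ∣ 1 := by
    have h2 : ℓ ∣ 1 + ℓ * rootMultiplicity a Q := ⟨rootMultiplicity a P, hm.symm⟩
    exact (Nat.dvd_add_left (Dvd.intro _ rfl)).1 h2
  have := Nat.le_of_dvd one_pos hdvd
  omega

theorem countable_poly [Countable k] : Countable k[X] := by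
  rw [← Cardinal.mk_le_aleph0_iff]
  refine (Polynomial.cardinalMk_le_max).trans ?_
  exact max_le Cardinal.mk_le_aleph0 le_rfl

theorem countable_ratFunc [Countable k] : Countable (RatFunc k) := by
  have := countable_poly k
  have hs : Function.Surjective fun pq : k[X] × k[X] =>
      (algebraMap k[X] (RatFunc k) pq.1 / algebraMap k[X] (RatFunc k) pq.2) := by
    intro x
    exact ⟨(x.num, x.denom), RatFunc.num_div_denom x⟩
  exact hs.countable

theorem countable_V (F : Type) [Field F] [Countable F] : Countable (V ℓ F) := by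
  have hs : Function.Surjective (c0 ℓ F) := by
    intro v
    obtain ⟨x, rfl⟩ := cls_surj ℓ F v
    exact ⟨x, c0_unit ℓ F x⟩
  exact hs.countable

theorem rank_V_ratFunc [Infinite k] [Countable k] :
    Module.rank (ZMod ℓ) (V ℓ (RatFunc k)) = ℵ₀ := by
  have := countable_ratFunc k
  have := countable_V ℓ (RatFunc k)
  apply le_antisymm
  · exact (rank_le_card (ZMod ℓ) (V ℓ (RatFunc k))).trans Cardinal.mk_le_aleph0
  · by_contra h
    have h1 : Module.rank (ZMod ℓ) (V ℓ (RatFunc k)) < ℵ₀ := not_le.1 h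
    rw [Module.rank_lt_aleph0_iff] at h1
    have := h1
    have : Finite (V ℓ (RatFunc k)) := Module.finite_of_finite (ZMod ℓ)
    have hfin : Finite k := Finite.of_injective _ (c0_lin_injective ℓ k)
    exact (not_finite_iff_infinite.2 inferInstance) hfin

/-- in transcendence degree one every linear isomorphism is compatible, and the data of any two
rational function fields over countable algebraically closed fields are isomorphic -/
theorem exists_compatible (l : Type) [Field l] [IsAlgClosed k] [IsAlgClosed l] [Countable k]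
    [Countable l] : ∃ Θ : V ℓ (RatFunc k) ≃ₗ[ZMod ℓ] V ℓ (RatFunc l), Compatible ℓ Θ := by
  have : Infinite k := IsAlgClosed.instInfinite
  have : Infinite l := IsAlgClosed.instInfinite
  obtain ⟨Θ⟩ := nonempty_linearEquiv_of_rank_eq
    ((rank_V_ratFunc ℓ k).trans (rank_V_ratFunc ℓ l).symm)
  refine ⟨Θ, ?_⟩
  unfold Compatible
  rw [steinberg_ratFunc, steinberg_ratFunc, Submodule.map_top, LinearMap.range_eq_top]
  exact TensorProduct.map_surjective Θ.surjective Θ.surjective

end Vale.Agent.Lib.P019
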