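import Vale.Agent.Lib.P019.Ord

/-! # A compatible automorphism of `V_{k(t)}` that is not induced by a field automorphism -/

namespace Vale.Agent.Lib.P019

open TensorProduct Polynomial

set_option linter.unusedSectionVars false

variable (ℓ : ℕ) [Fact ℓ.Prime] (k : Type) [Field k]

/-- `t - n` -/
noncomputable def lin (n : ℕ) : RatFunc k := RatFunc.X - (n : RatFunc k)

theorem lin_eq (n : ℕ) : lin k n = algebraMap k[X] (RatFunc k) (X - C (n : k)) := by
  unfold lin
  simp

theorem lin_ne_zero (n : ℕ) : lin k n ≠ 0 := by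
  rw [lin_eq]
  exact (map_ne_zero_iff _ (RatFunc.algebraMap_injective k)).2 (X_sub_C_ne_zero _)

theorem ordInt_lin [CharZero k] (m n : ℕ) :
    ordInt k (m : k) (lin k n) = if m = n then 1 else 0 := by
  classical
  rw [lin_eq, ordInt_algebraMap, rootMultiplicity_X_sub_C]
  by_cases h : m = n
  · simp [h]
  · have h' : (m : k) ≠ (n : k) := fun e => h (Nat.cast_injective e)
    simp [h, h']

theorem ordInt_shift (a : k) (r : RatFunc k) (n : ℕ) (h : r - (n : RatFunc k) ≠ 0) :
    ordInt k a (r - (n : RatFunc k))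
      = (rootMultiplicity a (r.num - (n : k[X]) * r.denom) : ℤ) - rootMultiplicity a r.denom := by
  have hQ : algebraMap k[X] (RatFunc k) r.denom ≠ 0 :=
    (map_ne_zero_iff _ (RatFunc.algebraMap_injective k)).2 (RatFunc.denom_ne_zero r)
  have hr : r * algebraMap k[X] (RatFunc k) r.denom = algebraMap k[X] (RatFunc k) r.num := by
    have h0 := RatFunc.num_div_denom r
    rw [div_eq_iff hQ] at h0
    exact h0.symm
  have e : (r - (n : RatFunc k)) * algebraMap k[X] (RatFunc k) r.denom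
      = algebraMap k[X] (RatFunc k) (r.num - (n : k[X]) * r.denom) := by
    rw [map_sub, map_mul, map_natCast, sub_mul, hr]
  have h1 := ordInt_mul a h hQ
  rw [e, ordInt_algebraMap, ordInt_algebraMap] at h1
  linarith

/-- the arithmetic core -/
theorem no_orders (P Q : k[X]) (hPQ : IsCoprime P Q) (c : ZMod ℓ)
    (E0 : c * (((rootMultiplicity (1 : k) (P - ((0 : ℕ) : k[X]) * Q) : ℤ)
      - rootMultiplicity (1 : k) Q : ℤ) : ZMod ℓ) = 1)
    (E1 : c * (((rootMultiplicity (1 : k) (P - ((1 : ℕ) : k[X]) * Q) : ℤ)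
      - rootMultiplicity (1 : k) Q : ℤ) : ZMod ℓ) = 1)
    (E2 : c * (((rootMultiplicity (1 : k) (P - ((2 : ℕ) : k[X]) * Q) : ℤ)
      - rootMultiplicity (1 : k) Q : ℤ) : ZMod ℓ) = 0) : False := by
  have h10 : (1 : ZMod ℓ) ≠ 0 := one_ne_zero
  by_cases hQ : Q.eval 1 = 0
  · have hP : P.eval 1 ≠ 0 := by
      obtain ⟨a, b, hab⟩ := hPQ
      intro hP
      have := congrArg (Polynomial.eval (1 : k)) hab
      simp [hP, hQ] at this
    have hm : ∀ n : ℕ, rootMultiplicity (1 : k) (P - (n : k[X]) * Q) = 0 := by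
      intro n
      apply rootMultiplicity_eq_zero
      simp [IsRoot, hQ, hP]
    rw [hm 0] at E0
    rw [hm 2] at E2
    exact h10 (E0.symm.trans E2)
  · have hmQ : rootMultiplicity (1 : k) Q = 0 := rootMultiplicity_eq_zero hQ
    rw [hmQ] at E0 E1
    have hroot : ∀ n : ℕ, c * (((rootMultiplicity (1 : k) (P - (n : k[X]) * Q) : ℤ)
        - ((0 : ℕ) : ℤ) : ℤ) : ZMod ℓ) = 1 → (P - (n : k[X]) * Q).eval 1 = 0 := by
      intro n hn
      by_contra hne
      have h0 : rootMultiplicity (1 : k) (P - (n : k[X]) * Q) = 0 := rootMultiplicity_eq_zero hne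
      rw [h0] at hn
      simp at hn
    have h0 := hroot 0 E0
    have h1 := hroot 1 E1
    simp at h0 h1
    rw [h0] at h1
    exact hQ (by simpa using h1)

theorem ordV_zero_w [CharZero k] :
    ordV ℓ k ((0 : ℕ) : k) (c0 ℓ (RatFunc k) (lin k 1)) = 0 := by
  rw [ordV_c0 ℓ k _ (lin_ne_zero k 1), ordInt_lin]
  simp

/-- the transvection `v ↦ v + ord_0(v) [t - 1]` -/
noncomputable def theta [CharZero k] : V ℓ (RatFunc k) ≃ₗ[ZMod ℓ] V ℓ (RatFunc k) :=
  LinearEquiv.transvection (f := ordV ℓ k ((0 : ℕ) : k)) (v := c0 ℓ (RatFunc k) (lin k 1))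
    (ordV_zero_w ℓ k)

theorem ord_theta [CharZero k] (n : ℕ) :
    ordV ℓ k ((1 : ℕ) : k) (theta ℓ k (c0 ℓ (RatFunc k) (lin k n)))
      = (if 1 = n then 1 else 0) + (if 0 = n then 1 else 0) := by
  unfold theta
  rw [LinearEquiv.transvection.apply, map_add, map_smul, ordV_c0 ℓ k _ (lin_ne_zero k n),
    ordV_c0 ℓ k _ (lin_ne_zero k n), ordV_c0 ℓ k _ (lin_ne_zero k 1), ordInt_lin, ordInt_lin,
    ordInt_lin]
  by_cases h1 : 1 = n <;> by_cases h0 : 0 = n <;> simp [h1, h0]

theorem theta_not_geometric [CharZero k] (c : ZMod ℓ) (α : RatFunc k ≃+* RatFunc k) :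
    ∃ x : (RatFunc k)ˣ, theta ℓ k (cls ℓ (RatFunc k) x)
      ≠ c • cls ℓ (RatFunc k) (Units.map (α : RatFunc k →* RatFunc k) x) := by
  by_contra hcon
  have hall : ∀ x : (RatFunc k)ˣ, theta ℓ k (cls ℓ (RatFunc k) x)
      = c • cls ℓ (RatFunc k) (Units.map (α : RatFunc k →* RatFunc k) x) := by
    intro x
    by_contra hx
    exact hcon ⟨x, hx⟩
  set r : RatFunc k := α RatFunc.X with hr
  have himg : ∀ n : ℕ, α (lin k n) = r - (n : RatFunc k) := by
    intro n
    unfold lin
    rw [map_sub, map_natCast]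
  have hne : ∀ n : ℕ, r - (n : RatFunc k) ≠ 0 := by
    intro n
    rw [← himg n]
    exact (map_ne_zero_iff α α.injective).2 (lin_ne_zero k n)
  have key : ∀ n : ℕ, c * (((rootMultiplicity (1 : k) (r.num - (n : k[X]) * r.denom) : ℤ)
      - rootMultiplicity (1 : k) r.denom : ℤ) : ZMod ℓ)
      = (if 1 = n then 1 else 0) + (if 0 = n then 1 else 0) := by
    intro n
    have h1 := hall (Units.mk0 (lin k n) (lin_ne_zero k n))
    have h2 := congrArg (ordV ℓ k ((1 : ℕ) : k)) h1
    rw [← c0_of_ne ℓ _ (lin_ne_zero k n), ord_theta, map_smul, ordV_cls] at h2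
    have h3 : ((Units.map (α : RatFunc k →* RatFunc k) (Units.mk0 (lin k n) (lin_ne_zero k n)) :
        (RatFunc k)ˣ) : RatFunc k) = r - (n : RatFunc k) := by
      rw [← himg n]
      rfl
    rw [h3, ordInt_shift k _ r n (hne n), smul_eq_mul, Nat.cast_one] at h2
    exact h2.symm
  refine no_orders ℓ k r.num r.denom (RatFunc.isCoprime_num_denom r) c ?_ ?_ ?_
  · simpa using key 0
  · simpa using key 1
  · simpa using key 2

end Vale.Agent.Lib.P019
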