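import Vale.Agent.Lib.P019.Line

/-! # Orders of vanishing modulo `ℓ` on `V_{k(t)}` and a transvection that no field automorphism induces -/

namespace Vale.Agent.Lib.P019

open TensorProduct Polynomial

set_option linter.unusedSectionVars false

variable (ℓ : ℕ) [Fact ℓ.Prime] (k : Type) [Field k]

/-- order of vanishing of a rational function at the point `a` -/
noncomputable def ordInt (a : k) (f : RatFunc k) : ℤ :=
  (rootMultiplicity a f.num : ℤ) - (rootMultiplicity a f.denom : ℤ)

variable {k}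

theorem ordInt_mul (a : k) {f g : RatFunc k} (hf : f ≠ 0) (hg : g ≠ 0) :
    ordInt k a (f * g) = ordInt k a f + ordInt k a g := by
  have h := RatFunc.num_denom_mul f g
  have hfn := RatFunc.num_ne_zero hf
  have hgn := RatFunc.num_ne_zero hg
  have hfgn := RatFunc.num_ne_zero (mul_ne_zero hf hg)
  have hfd := RatFunc.denom_ne_zero f
  have hgd := RatFunc.denom_ne_zero g
  have hfgd := RatFunc.denom_ne_zero (f * g)
  have h2 := congrArg (rootMultiplicity a) h
  rw [rootMultiplicity_mul (mul_ne_zero hfgn (mul_ne_zero hfd hgd)),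
    rootMultiplicity_mul (mul_ne_zero hfd hgd),
    rootMultiplicity_mul (mul_ne_zero (mul_ne_zero hfn hgn) hfgd),
    rootMultiplicity_mul (mul_ne_zero hfn hgn)] at h2
  unfold ordInt
  omega

theorem ordInt_algebraMap (a : k) (p : k[X]) :
    ordInt k a (algebraMap k[X] (RatFunc k) p) = (rootMultiplicity a p : ℤ) := by
  unfold ordInt
  rw [RatFunc.num_algebraMap, RatFunc.denom_algebraMap]
  simp

theorem ordInt_one (a : k) : ordInt k a 1 = 0 := by
  have h := ordInt_algebraMap a (1 : k[X])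
  rw [map_one] at h
  rw [h]
  simp

variable (k)

/-- the order at `a` as a homomorphism on units -/
noncomputable def ordHom (a : k) : (RatFunc k)ˣ →* Multiplicative (ZMod ℓ) where
  toFun x := Multiplicative.ofAdd ((ordInt k a (x : RatFunc k) : ℤ) : ZMod ℓ)
  map_one' := by
    rw [Units.val_one, ordInt_one]
    simp
  map_mul' x y := by
    rw [Units.val_mul, ordInt_mul a x.ne_zero y.ne_zero]
    push_cast
    rfl

theorem ordHom_pow (a : k) (x : (RatFunc k)ˣ) : ordHom ℓ k a (x ^ ℓ) = 1 := by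
  rw [map_pow]
  have h : ∀ z : Multiplicative (ZMod ℓ), z ^ ℓ = 1 := by
    intro z
    have h2 : ℓ • (Multiplicative.toAdd z) = 0 := by
      rw [nsmul_eq_mul]
      simp
    exact congrArg Multiplicative.ofAdd h2
  exact h _

/-- the order at `a` modulo `ℓ` as a linear form on `V_{k(t)}` -/
noncomputable def ordV (a : k) : V ℓ (RatFunc k) →ₗ[ZMod ℓ] ZMod ℓ :=
  AddMonoidHom.toZModLinearMap ℓ
    (MonoidHom.toAdditiveLeft (QuotientGroup.lift _ (ordHom ℓ k a) (by
      rintro _ ⟨y, rfl⟩
      exact ordHom_pow ℓ k a y)) : V ℓ (RatFunc k) →+ ZMod ℓ)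

theorem ordV_cls (a : k) (x : (RatFunc k)ˣ) :
    ordV ℓ k a (cls ℓ (RatFunc k) x) = ((ordInt k a (x : RatFunc k) : ℤ) : ZMod ℓ) := rfl

theorem ordV_c0 (a : k) {f : RatFunc k} (hf : f ≠ 0) :
    ordV ℓ k a (c0 ℓ (RatFunc k) f) = ((ordInt k a f : ℤ) : ZMod ℓ) := by
  rw [c0_of_ne ℓ _ hf, ordV_cls]
  rfl

end Vale.Agent.Lib.P019
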