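import Vale.Agent.Lib.P019.Basic

/-! # Rational pencils are isotropic -/

namespace Vale.Agent.Lib.P019

open TensorProduct Polynomial

set_option linter.unusedSectionVars false

variable (ℓ : ℕ) [Fact ℓ.Prime] (k : Type) [Field k] [IsAlgClosed k]
  (K : Type) [Field K] [Algebra k K]

/-- constants are `ℓ`-th powers -/
theorem c0_const (c : k) : c0 ℓ K (algebraMap k K c) = 0 := by
  obtain ⟨d, hd⟩ := IsAlgClosed.exists_pow_nat_eq c (Fact.out : ℓ.Prime).pos
  rw [← hd, map_pow, c0_pow]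

theorem c0_const_mul {c : k} (hc : c ≠ 0) (y : K) :
    c0 ℓ K (algebraMap k K c * y) = c0 ℓ K y := by
  by_cases hy : y = 0
  · simp [hy]
  have hc' : algebraMap k K c ≠ 0 := (map_ne_zero (algebraMap k K)).2 hc
  rw [c0_mul ℓ K hc' hy, c0_const, zero_add]

/-- `[u - a] ⊗ [u - b]` lies in `R_K` -/
theorem lin_tmul_lin_mem (u : K) (a b : k) :
    c0 ℓ K (u - algebraMap k K a) ⊗ₜ[ZMod ℓ] c0 ℓ K (u - algebraMap k K b) ∈ steinberg ℓ K := by
  by_cases hab : a = b
  · subst hab
    have h := c0_tmul_neg_mem ℓ K (u - algebraMap k K a)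
    have e : -(u - algebraMap k K a) = algebraMap k K (-1) * (u - algebraMap k K a) := by
      simp
    rw [e, c0_const_mul ℓ k K (by simp : (-1 : k) ≠ 0)] at h
    exact h
  by_cases hua : u - algebraMap k K a = 0
  · rw [hua, c0_zero, zero_tmul]
    exact Submodule.zero_mem _
  by_cases hub : u - algebraMap k K b = 0
  · rw [hub, c0_zero, tmul_zero]
    exact Submodule.zero_mem _
  have hba : b - a ≠ 0 := sub_ne_zero.2 (Ne.symm hab)
  have hba' : algebraMap k K (b - a) ≠ 0 := (map_ne_zero (algebraMap k K)).2 hba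
  have hba'' : algebraMap k K b - algebraMap k K a ≠ 0 := by
    rw [← map_sub]
    exact hba'
  set x : K := algebraMap k K (b - a)⁻¹ * (u - algebraMap k K a) with hx
  have hinv : (b - a)⁻¹ ≠ 0 := inv_ne_zero hba
  have hinv' : algebraMap k K (b - a)⁻¹ ≠ 0 := (map_ne_zero (algebraMap k K)).2 hinv
  have hx0 : x ≠ 0 := mul_ne_zero hinv' hua
  have h1x : 1 - x = algebraMap k K (-(b - a)⁻¹) * (u - algebraMap k K b) := by
    rw [hx, map_neg, map_inv₀, map_sub]
    field_simp
    ring
  have hx1 : x ≠ 1 := by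
    intro h
    have h2 : 1 - x = 0 := by rw [h, sub_self]
    rw [h1x] at h2
    rcases mul_eq_zero.1 h2 with h3 | h3
    · have : -(b - a)⁻¹ = 0 := (map_eq_zero (algebraMap k K)).1 h3
      exact hinv (neg_eq_zero.1 this)
    · exact hub h3
  have h := c0_tmul_mem ℓ K hx0 hx1
  rw [h1x, c0_const_mul ℓ k K (neg_ne_zero.2 hinv), hx, c0_const_mul ℓ k K hinv] at h
  exact h

/-- the span of the classes `[u - a]` -/
def pencil (u : K) : Submodule (ZMod ℓ) (V ℓ K) :=
  Submodule.span (ZMod ℓ) (Set.range fun a : k => c0 ℓ K (u - algebraMap k K a))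

theorem poly_mem_pencil (u : K) (n : ℕ) :
    ∀ p : k[X], p.natDegree ≤ n → c0 ℓ K (aeval u p) ∈ pencil ℓ k K u := by
  induction n with
  | zero =>
    intro p hp
    rw [Polynomial.eq_C_of_natDegree_le_zero hp, aeval_C, c0_const]
    exact Submodule.zero_mem _
  | succ n ih =>
    intro p hp
    by_cases hd : p.degree = 0
    · rw [Polynomial.eq_C_of_degree_eq_zero hd, aeval_C, c0_const]
      exact Submodule.zero_mem _
    obtain ⟨a, ha⟩ := IsAlgClosed.exists_root p hd
    obtain ⟨q, rfl⟩ := Polynomial.dvd_iff_isRoot.2 ha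
    by_cases hq : q = 0
    · simp [hq, c0_zero]
    have hdeg : ((X - C a) * q).natDegree = 1 + q.natDegree := by
      rw [Polynomial.natDegree_mul (Polynomial.X_sub_C_ne_zero a) hq, Polynomial.natDegree_X_sub_C]
    have hqn : q.natDegree ≤ n := by omega
    have e : aeval u ((X - C a) * q) = (u - algebraMap k K a) * aeval u q := by
      simp
    rw [e]
    by_cases h1 : u - algebraMap k K a = 0
    · rw [h1, zero_mul, c0_zero]
      exact Submodule.zero_mem _
    by_cases h2 : aeval u q = 0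
    · rw [h2, mul_zero, c0_zero]
      exact Submodule.zero_mem _
    rw [c0_mul ℓ K h1 h2]
    exact Submodule.add_mem _ (Submodule.subset_span ⟨a, rfl⟩) (ih q hqn)

/-- the pencil of `u` is isotropic -/
theorem pencil_isotropic (u : K) :
    ∀ v ∈ pencil ℓ k K u, ∀ w ∈ pencil ℓ k K u, v ⊗ₜ[ZMod ℓ] w ∈ steinberg ℓ K := by
  apply tmul_mem_of_span
  rintro _ ⟨a, rfl⟩ _ ⟨b, rfl⟩
  exact lin_tmul_lin_mem ℓ k K u a b

/-- all rational functions of `u`: `[p(u)/q(u)] ⊗ [r(u)/s(u)]` lies in `R_K` -/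
theorem ratfun_mem_pencil (u : K) (p q : k[X]) :
    c0 ℓ K (aeval u p / aeval u q) ∈ pencil ℓ k K u := by
  by_cases hp : aeval u p = 0
  · rw [hp, zero_div, c0_zero]
    exact Submodule.zero_mem _
  by_cases hq : aeval u q = 0
  · rw [hq, div_zero, c0_zero]
    exact Submodule.zero_mem _
  rw [c0_div ℓ K hp hq]
  exact Submodule.sub_mem _ (poly_mem_pencil ℓ k K u _ p le_rfl) (poly_mem_pencil ℓ k K u _ q le_rfl)

end Vale.Agent.Lib.P019
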